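import Vale.Agent.P062h5.Symm
import Vale.Agent.P062h5.Cert.V1
import Vale.Agent.P062h5.Cert.A1

namespace Vale.Agent.Results.P062.AFull

open Vale.Agent.P062h5

/-- The replies of Breaker that are answered by the first certificate, in the octant. -/
def octQ (c : Cell) : Prop := 0 ≤ c.2 ∧ c.2 ≤ c.1 ∧ 2 ≤ c.1 + c.2

instance : DecidablePred octQ := fun c => by unfold octQ; infer_instance

theorem check_bound : Cert.VRr < 2 ^ 2048 := by decide +kernel

theorem check_cells : ∀ i < 2048, Cert.VRr.testBit i = true → ¬ octQ (cellOf i) := by
  decide +kernel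

theorem check_origin : Cert.VRm = 2 ^ originCode := by decide +kernel

/-- Every first reply that does not share an edge with the origin loses. -/
theorem far (b : ℤ × ℤ) (hb : 2 ≤ |b.1| + |b.2|) : MakerWins {(0, 0)} {b} := by
  refine ans_of_octant (fun b => 2 ≤ |b.1| + |b.2|) ?_ ?_ ?_ b hb
  · rintro ⟨x, y⟩ h
    simp only [tauE, Equiv.coe_fn_mk] at h ⊢
    omega
  · rintro ⟨x, y⟩ h
    simpa [rhoE] using h
  · intro x y hy hyx hq
    have hq' : octQ (x, y) := by
      refine ⟨hy, hyx, ?_⟩
      simp only at hq ⊢
      rw [abs_of_nonneg hy, abs_of_nonneg (le_trans hy hyx)] at hq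
      exact hq
    have hne : ((x, y) : Cell) ≠ (0, 0) := by
      intro he
      have h1 := congrArg Prod.fst he
      have h2 := congrArg Prod.snd he
      simp only at h1 h2
      have := hq'.2.2
      simp only at this
      omega
    refine PP.ans Cert.VRoot ?_ (not_mem_sem_of_check check_bound check_cells hq') hne
    rw [check_origin, sem_origin]

/-- The code of the cell `(1, 0)`. -/
def rightCode : ℕ := 17 + 32 * 16

theorem cellOf_right : cellOf rightCode = (1, 0) := by decide

theorem check_originA : Cert.ARm = 2 ^ originCode := by decide +kernel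

theorem check_rA : Cert.ARr.testBit rightCode = false := by decide +kernel

/-- The first reply `(1, 0)`, sharing an edge with the origin, loses. -/
theorem edge : Ans (1, 0) := by
  refine PP.ans Cert.ARoot ?_ ?_ (by simp)
  · rw [check_originA, sem_origin]
  · rw [← cellOf_right, mem_sem_cellOf, check_rA]
    simp

/-- Maker has a winning strategy in the achievement game for Snaky on the initially empty board
`ℤ²`, with no handicap. -/
theorem result : MakerWins ∅ ∅ := by
  have hA : ∀ b : Cell, b ≠ (0, 0) → Ans b := by
    refine ans_of_octant (fun b => b ≠ (0, 0)) ?_ ?_ ?_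
    · rintro ⟨x, y⟩ h he
      apply h
      simp only [tauE, Equiv.coe_fn_mk, Prod.mk.injEq] at he ⊢
      omega
    · rintro ⟨x, y⟩ h he
      apply h
      simp only [rhoE, Equiv.coe_fn_mk, Prod.mk.injEq] at he ⊢
      omega
    · intro x y hy hyx hq
      by_cases h10 : ((x, y) : Cell) = (1, 0)
      · rw [h10]; exact edge
      · apply far
        simp only
        rw [abs_of_nonneg hy, abs_of_nonneg (le_trans hy hyx)]
        simp only [ne_eq, Prod.mk.injEq, not_and] at hq h10
        omega
  refine MakerWins.move (0, 0) (by simp) (by simp) ?_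
  intro b hb1 _
  have hb0 : b ≠ (0, 0) := by simpa using hb1
  have := hA b hb0
  simpa [Ans] using this

end Vale.Agent.Results.P062.AFull
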