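import Vale.Agent.P062h5.Symm
import Vale.Agent.P062h5.Cert.V1
import Vale.Agent.P062h5.Cert.K0

namespace Vale.Agent.Results.P062.AOnePosition

open Vale.Agent.P062h5

/-- The replies of Breaker that are answered, in the octant. -/
def octQ (c : Cell) : Prop := 0 ≤ c.2 ∧ c.2 ≤ c.1 ∧ 2 ≤ c.1 + c.2

instance : DecidablePred octQ := fun c => by unfold octQ; infer_instance

theorem check_bound : Cert.VRr < 2 ^ 2048 := by decide +kernel

theorem check_cells : ∀ i < 2048, Cert.VRr.testBit i = true → ¬ octQ (cellOf i) := by
  decide +kernel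

theorem check_origin : Cert.VRm = 2 ^ originCode := by decide +kernel

/-- Every first reply that does not share an edge with the origin loses. -/
theorem far (b : ℤ × ℤ) (hb : 2 ≤ |b.1| + |b.2|) : MakerWins {(0, 0)} {b} := by
  refine ans_of_octant (fun b => 2 ≤ |b.1| + |b.2|) ?_ ?_ ?_ b hb
  · rintro ⟨x, y⟩ h
    simp only [tauE, Equiv.coe_fn_mk] at h ⊢
    omega
  · rintro ⟨x, y⟩ h
    simpa [rhoE] using h
  · intro x y hy hyx hq
    have hq' : octQ (x, y) := by
      refine ⟨hy, hyx, ?_⟩
      simp only at hq ⊢
      rw [abs_of_nonneg hy, abs_of_nonneg (le_trans hy hyx)] at hq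
      exact hq
    have hne : ((x, y) : Cell) ≠ (0, 0) := by
      intro he
      have h1 := congrArg Prod.fst he
      have h2 := congrArg Prod.snd he
      simp only at h1 h2
      have := hq'.2.2
      simp only at this
      omega
    refine PP.ans Cert.VRoot ?_ (not_mem_sem_of_check check_bound check_cells hq') hne
    rw [check_origin, sem_origin]

/-- The cells that the second certificate leaves open. -/
def openCell (c : Cell) : Prop := c ≠ (0, 0) ∧ c ≠ (0, -1) ∧ c ≠ (0, -2)

instance : DecidablePred openCell := fun c => by unfold openCell; infer_instance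

theorem check_boundK : Cert.KRr < 2 ^ 2048 := by decide +kernel

theorem check_cellsK : ∀ i < 2048, Cert.KRr.testBit i = true → ¬ openCell (cellOf i) := by
  decide +kernel

/-- The code of the cell `(0, -1)`. -/
def downCode : ℕ := 16 + 32 * 15

/-- The code of the cell `(1, 0)`. -/
def rightCode : ℕ := 17 + 32 * 16

theorem check_m : Cert.KRm = 2 ^ originCode ||| 2 ^ downCode := by decide +kernel

theorem check_z : Cert.KRz.testBit rightCode = false := by decide +kernel

theorem cellOf_down : cellOf downCode = (0, -1) := by decide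

theorem cellOf_right : cellOf rightCode = (1, 0) := by decide

/-- After the stones `(0, 0)`, `(1, 0)`, `(0, -1)` every second reply but `(0, -2)` loses. -/
theorem second (c : ℤ × ℤ) (h0 : c ≠ (0, 0)) (h1 : c ≠ (0, -1)) (h2 : c ≠ (1, 0)) (h3 : c ≠ (0, -2)) :
    MakerWins {(0, -1), (0, 0)} {c, (1, 0)} := by
  refine Cert.KRoot {(0, -1), (0, 0)} {(1, 0)} ?_ ?_ c ?_ ?_ ?_
  · rw [check_m, sem_or, sem_two_pow, sem_two_pow, cellOf_down, cellOf_origin]
    intro x hx
    rcases hx with hx | hx
    · have : x = (0, 0) := hx
      subst this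
      simp
    · have : x = (0, -1) := hx
      subst this
      simp
  · intro x hx
    have hx' : x = (1, 0) := by simpa using hx
    subst hx'
    rw [← cellOf_right, mem_sem_cellOf, check_z]
    simp
  · exact not_mem_sem_of_check check_boundK check_cellsK ⟨h0, h1, h3⟩
  · simp [h0, h1]
  · simp [h2]

/-- Three statements about the unhandicapped Snaky game on `ℤ²`, with Maker's first stone at the
origin.

(1) Maker wins against every first reply of Breaker that does not share an edge with the origin.

(2) After the first reply `(1, 0)`, Maker's second stone `(0, -1)` wins against every second reply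
of Breaker other than `(0, -2)`.

(3) Consequently the whole game comes down to the one position with Maker on `(0, -1), (0, 0)` and
Breaker on `(0, -2), (1, 0)`, with Maker to move: if Maker wins this position, Maker wins the game
from the empty board. -/
theorem result :
    (∀ b : ℤ × ℤ, 2 ≤ |b.1| + |b.2| → MakerWins {(0, 0)} {b}) ∧
    (∀ c : ℤ × ℤ, c ≠ (0, 0) → c ≠ (0, -1) → c ≠ (1, 0) → c ≠ (0, -2) →
      MakerWins {(0, -1), (0, 0)} {c, (1, 0)}) ∧
    (MakerWins {(0, -1), (0, 0)} {(0, -2), (1, 0)} → MakerWins ∅ ∅) := by
  refine ⟨far, second, fun hT => ?_⟩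
  have hE : Ans (1, 0) := by
    refine MakerWins.move (0, -1) (by simp) (by simp) ?_
    intro c hc1 hc2
    by_cases hc : c = (0, -2)
    · subst hc
      exact hT
    · refine second c ?_ ?_ ?_ hc
      · intro h; subst h; simp at hc1
      · intro h; subst h; simp at hc1
      · intro h; subst h; simp at hc2
  have hA : ∀ b : Cell, b ≠ (0, 0) → Ans b := by
    refine ans_of_octant (fun b => b ≠ (0, 0)) ?_ ?_ ?_
    · rintro ⟨x, y⟩ h he
      apply h
      simp only [tauE, Equiv.coe_fn_mk, Prod.mk.injEq] at he ⊢
      omega
    · rintro ⟨x, y⟩ h he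
      apply h
      simp only [rhoE, Equiv.coe_fn_mk, Prod.mk.injEq] at he ⊢
      omega
    · intro x y hy hyx hq
      by_cases h10 : ((x, y) : Cell) = (1, 0)
      · rw [h10]; exact hE
      · apply far
        simp only
        rw [abs_of_nonneg hy, abs_of_nonneg (le_trans hy hyx)]
        simp only [ne_eq, Prod.mk.injEq, not_and] at hq h10
        omega
  refine MakerWins.move (0, 0) (by simp) (by simp) ?_
  intro b hb1 _
  have hb0 : b ≠ (0, 0) := by simpa using hb1
  have := hA b hb0
  simpa [Ans] using this

end Vale.Agent.Results.P062.AOnePosition
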