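import Vale.Agent.P062.FS.All

/-!
Snaky in the plane: after Maker's first cell, every reply of Breaker except twenty cells close to
that cell loses by force.
-/

namespace Vale.Agent.Results.P062.FarReply

open Vale.Agent.P062

/-- Maker claims the origin first. If Breaker replies at any cell `b` with `x ^ 2 + y ^ 2 > 5`,
then Maker can force an allowed copy of Snaky with at most 13 further claims. -/
theorem result (b : Cell) (hb : 5 < b.1 ^ 2 + b.2 ^ 2) :
    MakerWinsIn 13 {(0, 0)} {b} :=
  FS.far' hb

end Vale.Agent.Results.P062.FarReply
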