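import Vale.Agent.P062h5.Symm
import Vale.Agent.P062h5.Cert.V1

namespace Vale.Agent.Results.P062.KingNeighbours

open Vale.Agent.P062h5

/-- The replies of Breaker that are answered, in the octant. -/
def octQ (c : Cell) : Prop := 0 ≤ c.2 ∧ c.2 ≤ c.1 ∧ 2 ≤ c.1

instance : DecidablePred octQ := fun c => by unfold octQ; infer_instance

theorem check_bound : Cert.VRr < 2 ^ 2048 := by decide +kernel

theorem check_cells : ∀ i < 2048, Cert.VRr.testBit i = true → ¬ octQ (cellOf i) := by
  decide +kernel

theorem check_origin : Cert.VRm = 2 ^ originCode := by decide +kernel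

/-- Let Maker's first stone be at the origin. Against every first reply `b` of Breaker that is not
one of the eight cells touching the origin (`|b.1| ≤ 1` and `|b.2| ≤ 1`), Maker has a winning
strategy. -/
theorem result (b : ℤ × ℤ) (hb : 2 ≤ |b.1| ∨ 2 ≤ |b.2|) :
    MakerWins {(0, 0)} {b} := by
  refine ans_of_octant (fun b => 2 ≤ |b.1| ∨ 2 ≤ |b.2|) ?_ ?_ ?_ b hb
  · rintro ⟨x, y⟩ h
    simp only [tauE, Equiv.coe_fn_mk] at h ⊢
    exact h.symm
  · rintro ⟨x, y⟩ h
    simpa [rhoE] using h
  · intro x y hy hyx hq
    have hq' : octQ (x, y) := by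
      refine ⟨hy, hyx, ?_⟩
      simp only at hq ⊢
      rw [abs_of_nonneg hy, abs_of_nonneg (le_trans hy hyx)] at hq
      rcases hq with h | h
      · exact h
      · exact le_trans h hyx
    have hne : ((x, y) : Cell) ≠ (0, 0) := by
      intro he
      have h1 := congrArg Prod.fst he
      have h2 := congrArg Prod.snd he
      simp only at h1 h2
      have := hq'.2.2
      simp only at this
      omega
    refine PP.ans Cert.VRoot ?_ (not_mem_sem_of_check check_bound check_cells hq') hne
    rw [check_origin, sem_origin]

end Vale.Agent.Results.P062.KingNeighbours
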