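import Vale.Agent.P062.NEAR.All

/-!
Snaky in the plane: after Maker's first cell, every reply of Breaker outside the eight cells
adjacent (orthogonally or diagonally) to that cell loses by force.
-/

namespace Vale.Agent.Results.P062.NearReply

open Vale.Agent.P062

/-- Maker claims the origin first. If Breaker replies at any cell `b` with `x ^ 2 + y ^ 2 > 2`,
then Maker can force an allowed copy of Snaky with at most 26 further claims. -/
theorem result (b : Cell) (hb : 2 < b.1 ^ 2 + b.2 ^ 2) :
    MakerWinsIn 26 {(0, 0)} {b} :=
  NEAR.far' hb

end Vale.Agent.Results.P062.NearReply
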